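import Vale.Agent.P140.Main
import Vale.Agent.P140.Sol

/-! P140: renormalized entropy solutions of the periodic hard-sphere Boltzmann equation
are not unique. -/

namespace Vale.Agent.Results.P140.A_full

open MeasureTheory Set Vale.Agent.P140

theorem result : ∃ F₀ : X × V → ℝ, IsDatum F₀ ∧ ∃ F₁ F₂ : ℝ → X × V → ℝ,
    IsSolution F₀ F₁ ∧ IsSolution F₀ F₂ ∧
      ¬ ∀ᵐ p : ℝ × (X × V) ∂(((volume : Measure ℝ).restrict (Ioi 0)).prod volume),
        F₁ p.1 p.2 = F₂ p.1 p.2 := by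
  obtain ⟨F₀, h0, F₁, F₂, h1, h2, h⟩ := nonunique
  have key : ∀ F, IsSol F₀ F → IsSolution F₀ F := fun F s =>
    ⟨⟨s.meas, s.nonneg, s.integrable, s.weakCont, s.init, s.bound⟩, ⟨s.gainInt, s.lossInt⟩,
      fun β β' hb φ hφ => s.renorm β β' hb.hasDeriv hb.cont hb.zero hb.decay φ hφ, s.massLoc,
      s.momentum, s.energy, s.entropy⟩
  exact ⟨F₀, h0, F₁, F₂, key _ h1, key _ h2, h⟩

end Vale.Agent.Results.P140.A_full
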